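import Mathlib

/-!
# Translative covering densities (P230): definitions

`ℝⁿ` is `Fin n → ℝ` with its Lebesgue measure `volume` (the product measure).
-/

namespace Vale.Agent.Lib.P230

open MeasureTheory Filter
open scoped ENNReal Pointwise

/-- The cube `Q_R = [-R, R]^n`. -/
def cube (n : ℕ) (R : ℝ) : Set (Fin n → ℝ) := {x | ∀ i, |x i| ≤ R}

/-- `X` is locally finite: every bounded set contains finitely many points of `X`. -/
def IsLocFinite {n : ℕ} (X : Set (Fin n → ℝ)) : Prop :=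
  ∀ B : Set (Fin n → ℝ), Bornology.IsBounded B → (X ∩ B).Finite

/-- The upper density `limsup_{R → ∞} #(X ∩ Q_R) / (2R)^n` of a set of points of `ℝⁿ`, with
values in `[0, ∞]`. -/
noncomputable def upperDensity {n : ℕ} (X : Set (Fin n → ℝ)) : ℝ≥0∞ :=
  limsup (fun R : ℝ => ((X ∩ cube n R).encard : ℝ≥0∞) / ENNReal.ofReal ((2 * R) ^ n)) atTop

/-- The translative covering density `θ_T(K)`: the infimum of `vol(K)` times the upper density
of `X`, over the locally finite sets `X` with `K + X = ℝⁿ` (`∞` if there is none). -/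
noncomputable def transCovDensity {n : ℕ} (K : Set (Fin n → ℝ)) : ℝ≥0∞ :=
  ⨅ (X : Set (Fin n → ℝ)) (_ : IsLocFinite X ∧ K + X = Set.univ), volume K * upperDensity X

/-- A convex body: a compact convex set with nonempty interior. -/
def IsConvexBody {n : ℕ} (K : Set (Fin n → ℝ)) : Prop :=
  IsCompact K ∧ Convex ℝ K ∧ (interior K).Nonempty

/-- `Θ_T(n)`: the supremum of `θ_T(K)` over the convex bodies `K` of `ℝⁿ`. -/
noncomputable def transCovSup (n : ℕ) : ℝ≥0∞ :=
  ⨆ (K : Set (Fin n → ℝ)) (_ : IsConvexBody K), transCovDensity K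

/-- The prism `K × [0, 1]` over `K ⊆ ℝⁿ`, a subset of `ℝⁿ⁺¹` (last coordinate in `[0, 1]`). -/
def prism {n : ℕ} (K : Set (Fin n → ℝ)) : Set (Fin (n + 1) → ℝ) :=
  {x | Fin.init x ∈ K ∧ x (Fin.last n) ∈ Set.Icc (0 : ℝ) 1}

/-- The periodic set generated by a finite set `Y` and the lattice `(2N) ℤⁿ`. -/
def periodize {n : ℕ} (N : ℕ) (Y : Finset (Fin n → ℝ)) : Set (Fin n → ℝ) :=
  {x | ∃ y ∈ Y, ∃ m : Fin n → ℤ, x = fun i => y i + 2 * (N : ℝ) * (m i)}

/-- The set `X × ℤ ⊆ ℝⁿ⁺¹` of the points over `X` at integer heights. -/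
def stack {n : ℕ} (X : Set (Fin n → ℝ)) : Set (Fin (n + 1) → ℝ) :=
  {x | Fin.init x ∈ X ∧ ∃ m : ℤ, x (Fin.last n) = m}

end Vale.Agent.Lib.P230
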