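import Vale.Agent.Lib.P230.Defs

/-!
# P230: Θ_T(n) ≤ Θ_T(n+1) and θ_T(K × [0,1]) = θ_T(K)
-/

namespace Vale.Agent.Lib.P230

open MeasureTheory Filter
open scoped ENNReal Pointwise

/-! ### VOL : the volume of a prism -/

section Vol

variable {n : ℕ}

theorem volume_prism (K : Set (Fin n → ℝ)) : volume (prism K) = volume K := by
  have hmp := MeasureTheory.volume_preserving_piFinSuccAbove (fun _ : Fin (n + 1) => ℝ)
    (Fin.last n)
  have hrem : ∀ x : Fin (n + 1) → ℝ, Fin.removeNth (Fin.last n) x = Fin.init x := by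
    intro x
    funext j
    simp [Fin.removeNth, Fin.init, Fin.succAbove_last]
  have hset : prism K = (MeasurableEquiv.piFinSuccAbove (fun _ : Fin (n + 1) => ℝ)
      (Fin.last n)) ⁻¹' (Set.Icc (0 : ℝ) 1 ×ˢ K) := by
    ext x
    simp only [prism, Set.mem_ofPred_eq, Set.mem_preimage, Set.mem_prod,
      MeasurableEquiv.piFinSuccAbove_apply, Fin.insertNthEquiv_symm_apply]
    rw [hrem x]
    exact ⟨fun h => ⟨h.2, h.1⟩, fun h => ⟨h.2, h.1⟩⟩
  rw [hset, hmp.measure_preimage_equiv, MeasureTheory.Measure.volume_eq_prod,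
    Measure.prod_prod, Real.volume_Icc]
  simp

end Vol

/-! ### BODY : the prism over a convex body is a convex body -/

section Body

variable {n : ℕ}

theorem isConvexBody_prism (K : Set (Fin n → ℝ)) (hK : IsConvexBody K) :
    IsConvexBody (prism K) := by
  obtain ⟨hc, hconv, hint⟩ := hK
  have hinit : Continuous (fun x : Fin (n + 1) → ℝ => (Fin.init x : Fin n → ℝ)) :=
    continuous_pi (fun i => continuous_apply i.castSucc)
  have hlast : Continuous (fun x : Fin (n + 1) → ℝ => x (Fin.last n)) := continuous_apply _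
  refine ⟨?_, ?_, ?_⟩
  · have himg : prism K = (fun p : (Fin n → ℝ) × ℝ => (Fin.snoc p.1 p.2 : Fin (n + 1) → ℝ)) ''
        (K ×ˢ Set.Icc (0 : ℝ) 1) := by
      ext x
      constructor
      · intro hx
        exact ⟨(Fin.init x, x (Fin.last n)), ⟨hx.1, hx.2⟩, Fin.snoc_init_self x⟩
      · rintro ⟨p, hp, rfl⟩
        refine ⟨?_, ?_⟩
        · show Fin.init (Fin.snoc p.1 p.2 : Fin (n + 1) → ℝ) ∈ K
          rw [Fin.init_snoc]
          exact hp.1
        · show (Fin.snoc p.1 p.2 : Fin (n + 1) → ℝ) (Fin.last n) ∈ Set.Icc (0 : ℝ) 1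
          rw [Fin.snoc_last]
          exact hp.2
    rw [himg]
    refine (hc.prod isCompact_Icc).image ?_
    refine continuous_pi (fun i => ?_)
    refine Fin.lastCases ?_ (fun j => ?_) i
    · simp only [Fin.snoc_last]
      exact continuous_snd
    · simp only [Fin.snoc_castSucc]
      exact (continuous_apply j).comp continuous_fst
  · intro x hx y hy a b ha hb hab
    refine ⟨?_, ?_⟩
    · have e : (Fin.init (a • x + b • y) : Fin n → ℝ) = a • Fin.init x + b • Fin.init y := by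
        funext i
        rfl
      show (Fin.init (a • x + b • y) : Fin n → ℝ) ∈ K
      rw [e]
      exact hconv hx.1 hy.1 ha hb hab
    · exact convex_Icc (0 : ℝ) 1 hx.2 hy.2 ha hb hab
  · obtain ⟨p, hp⟩ := hint
    have hU : IsOpen {x : Fin (n + 1) → ℝ |
        Fin.init x ∈ interior K ∧ x (Fin.last n) ∈ Set.Ioo (0 : ℝ) 1} :=
      (isOpen_interior.preimage hinit).inter (isOpen_Ioo.preimage hlast)
    have hsub : {x : Fin (n + 1) → ℝ |
        Fin.init x ∈ interior K ∧ x (Fin.last n) ∈ Set.Ioo (0 : ℝ) 1} ⊆ prism K :=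
      fun x hx => ⟨interior_subset hx.1, Set.Ioo_subset_Icc_self hx.2⟩
    refine ⟨(Fin.snoc p (1 / 2 : ℝ) : Fin (n + 1) → ℝ), interior_maximal hsub hU ⟨?_, ?_⟩⟩
    · show Fin.init (Fin.snoc p (1 / 2 : ℝ) : Fin (n + 1) → ℝ) ∈ interior K
      rw [Fin.init_snoc]
      exact hp
    · show (Fin.snoc p (1 / 2 : ℝ) : Fin (n + 1) → ℝ) (Fin.last n) ∈ Set.Ioo (0 : ℝ) 1
      rw [Fin.snoc_last]
      constructor <;> norm_num

end Body

/-! ### CUBE : cubes, bounded sets and locally finite sets -/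

section Cube

variable {n : ℕ}

theorem mem_cube (R : ℝ) (x : Fin n → ℝ) : x ∈ cube n R ↔ ∀ i, |x i| ≤ R := by
  exact Iff.rfl

theorem isBounded_cube (R : ℝ) : Bornology.IsBounded (cube n R) := by
  refine (Metric.isBounded_closedBall (x := (0 : Fin n → ℝ)) (r := max R 0)).subset ?_
  intro x hx
  rw [mem_closedBall_zero_iff]
  exact (pi_norm_le_iff_of_nonneg (le_max_right R 0)).mpr (fun i => by
    rw [Real.norm_eq_abs]
    exact le_trans (hx i) (le_max_left R 0))

theorem cube_mono {R S : ℝ} (h : R ≤ S) : cube n R ⊆ cube n S := by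
  intro x hx i
  exact le_trans (hx i) h

theorem exists_cube_of_isBounded (B : Set (Fin n → ℝ)) (hB : Bornology.IsBounded B) :
    ∃ R : ℝ, 1 ≤ R ∧ B ⊆ cube n R := by
  obtain ⟨r, hr⟩ := hB.subset_closedBall (0 : Fin n → ℝ)
  refine ⟨max r 1, le_max_right r 1, fun x hx i => ?_⟩
  have h1 := hr hx
  rw [mem_closedBall_zero_iff] at h1
  have h2 := norm_le_pi_norm x i
  rw [Real.norm_eq_abs] at h2
  exact le_trans h2 (le_trans h1 (le_max_left r 1))

theorem volume_lt_top_of_isBounded (B : Set (Fin n → ℝ)) (hB : Bornology.IsBounded B) :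
    volume B < ⊤ := by
  exact hB.measure_lt_top

theorem IsLocFinite.finite_inter_cube {X : Set (Fin n → ℝ)} (hX : IsLocFinite X) (R : ℝ) :
    (X ∩ cube n R).Finite := by
  exact hX _ (isBounded_cube R)

theorem isLocFinite_of_forall_cube (X : Set (Fin n → ℝ))
    (h : ∀ R : ℝ, (X ∩ cube n R).Finite) : IsLocFinite X := by
  intro B hB
  obtain ⟨R, -, hR⟩ := exists_cube_of_isBounded B hB
  exact (h R).subset (Set.inter_subset_inter_right _ hR)

end Cube

/-! ### DENS : a bound for upper densities -/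

section Dens

variable {n : ℕ}

/-- If eventually `#(X ∩ Q_R) ≤ f R` and `f R / (2R)^n → L`, then the upper density of `X` is
at most `L`. -/
theorem upperDensity_le_of_tendsto (X : Set (Fin n → ℝ)) (f : ℝ → ℝ) (L : ℝ)
    (hf : ∀ᶠ R in atTop, ((X ∩ cube n R).encard : ℝ≥0∞) ≤ ENNReal.ofReal (f R))
    (hL : Tendsto (fun R => f R / (2 * R) ^ n) atTop (nhds L)) :
    upperDensity X ≤ ENNReal.ofReal L := by
  unfold upperDensity
  have h1 : ∀ᶠ R in atTop,
      ((X ∩ cube n R).encard : ℝ≥0∞) / ENNReal.ofReal ((2 * R) ^ n)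
        ≤ ENNReal.ofReal (f R / (2 * R) ^ n) := by
    filter_upwards [hf, eventually_gt_atTop (0 : ℝ)] with R hR hpos
    have hp : 0 < (2 * R) ^ n := by positivity
    rw [ENNReal.ofReal_div_of_pos hp]
    exact ENNReal.div_le_div_right hR _
  calc limsup (fun R : ℝ => ((X ∩ cube n R).encard : ℝ≥0∞) / ENNReal.ofReal ((2 * R) ^ n))
        atTop
      ≤ limsup (fun R => ENNReal.ofReal (f R / (2 * R) ^ n)) atTop :=
        Filter.limsup_le_limsup h1
    _ = ENNReal.ofReal L := (ENNReal.tendsto_ofReal hL).limsup_eq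

/-- If the upper density of `X` is less than `b`, then eventually `#(X ∩ Q_R) ≤ b (2R)^n`. -/
theorem eventually_encard_le_of_upperDensity_lt (X : Set (Fin n → ℝ)) (b : ℝ≥0∞)
    (hb : upperDensity X < b) :
    ∀ᶠ R in atTop, ((X ∩ cube n R).encard : ℝ≥0∞) ≤ b * ENNReal.ofReal ((2 * R) ^ n) := by
  unfold upperDensity at hb
  have h1 := Filter.eventually_lt_of_limsup_lt hb
  filter_upwards [h1, eventually_gt_atTop (0 : ℝ)] with R hR hpos
  have hp : 0 < (2 * R) ^ n := by positivity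
  have h0 : ENNReal.ofReal ((2 * R) ^ n) ≠ 0 := (ENNReal.ofReal_pos.2 hp).ne'
  exact (ENNReal.div_le_iff h0 ENNReal.ofReal_ne_top).1 hR.le

/-- If eventually `#(X ∩ Q_R) ≤ b (2R)^n`, then the upper density of `X` is at most `b`. -/
theorem upperDensity_le_of_eventually (X : Set (Fin n → ℝ)) (b : ℝ≥0∞)
    (hb : ∀ᶠ R in atTop, ((X ∩ cube n R).encard : ℝ≥0∞) ≤ b * ENNReal.ofReal ((2 * R) ^ n)) :
    upperDensity X ≤ b := by
  unfold upperDensity
  refine Filter.limsup_le_of_le (h := ?_)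
  filter_upwards [hb, eventually_gt_atTop (0 : ℝ)] with R hR hpos
  have hp : 0 < (2 * R) ^ n := by positivity
  have h0 : ENNReal.ofReal ((2 * R) ^ n) ≠ 0 := (ENNReal.ofReal_pos.2 hp).ne'
  exact (ENNReal.div_le_iff h0 ENNReal.ofReal_ne_top).2 hR

end Dens

/-! ### PERA : periodic sets generated by a finite set: covering -/

section PerA

variable {n : ℕ}

theorem periodize_cover (N : ℕ) (hN : 1 ≤ N) (K : Set (Fin n → ℝ)) (Y : Finset (Fin n → ℝ))
    (hY : cube n N ⊆ K + (Y : Set (Fin n → ℝ))) : K + periodize N Y = Set.univ := by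
  rw [Set.eq_univ_iff_forall]
  intro q
  have hN1 : (1 : ℝ) ≤ (N : ℝ) := by exact_mod_cast hN
  have hNpos : (0 : ℝ) < 2 * (N : ℝ) := by linarith
  have hpc : (fun i => q i - 2 * (N : ℝ) * (round (q i / (2 * (N : ℝ))) : ℤ)) ∈ cube n N := by
    show ∀ i, |q i - 2 * (N : ℝ) * (round (q i / (2 * (N : ℝ))) : ℤ)| ≤ (N : ℝ)
    intro i
    have h1 : |q i / (2 * (N : ℝ)) - round (q i / (2 * (N : ℝ)))| ≤ 1 / 2 := abs_sub_round _
    have h2 : q i - 2 * (N : ℝ) * (round (q i / (2 * (N : ℝ))) : ℤ)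
        = 2 * (N : ℝ) * (q i / (2 * (N : ℝ)) - round (q i / (2 * (N : ℝ)))) := by
      field_simp
    rw [h2, abs_mul, abs_of_pos hNpos]
    nlinarith [abs_nonneg (q i / (2 * (N : ℝ)) - round (q i / (2 * (N : ℝ))))]
  obtain ⟨k, hk, y, hy, hky⟩ := Set.mem_add.1 (hY hpc)
  refine Set.mem_add.2 ⟨k, hk,
    fun i => y i + 2 * (N : ℝ) * (round (q i / (2 * (N : ℝ))) : ℤ), ?_, ?_⟩
  · exact ⟨y, Finset.mem_coe.1 hy, fun i => round (q i / (2 * (N : ℝ))), rfl⟩
  · funext i
    have h3 := congrFun hky i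
    simp only [Pi.add_apply] at h3 ⊢
    linarith

end PerA

/-! ### PERB : periodic sets generated by a finite set: counting and density -/

section PerB

variable {n : ℕ}

theorem taskPERB_card_Icc (R y : ℝ) (N : ℕ) (hN : 1 ≤ N) (hR : 0 ≤ R) :
    ((Finset.Icc ⌈(-R - y) / (2 * (N : ℝ))⌉ ⌊(R - y) / (2 * (N : ℝ))⌋).card : ℝ)
      ≤ R / N + 1 := by
  rw [Int.card_Icc]
  have hNpos : (0 : ℝ) < N := Nat.cast_pos.mpr (by omega)
  have ha : (-R - y) / (2 * (N : ℝ)) ≤ (⌈(-R - y) / (2 * (N : ℝ))⌉ : ℝ) := Int.le_ceil _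
  have hb : (⌊(R - y) / (2 * (N : ℝ))⌋ : ℝ) ≤ (R - y) / (2 * (N : ℝ)) := Int.floor_le _
  have hdiff : (R - y) / (2 * (N : ℝ)) - (-R - y) / (2 * (N : ℝ)) = R / N := by
    field_simp
    ring
  have hRN : 0 ≤ R / N := div_nonneg hR hNpos.le
  by_cases h : 0 ≤ ⌊(R - y) / (2 * (N : ℝ))⌋ + 1 - ⌈(-R - y) / (2 * (N : ℝ))⌉
  · have h1 : (((⌊(R - y) / (2 * (N : ℝ))⌋ + 1 - ⌈(-R - y) / (2 * (N : ℝ))⌉).toNat : ℤ) : ℝ)
        = ((⌊(R - y) / (2 * (N : ℝ))⌋ + 1 - ⌈(-R - y) / (2 * (N : ℝ))⌉ : ℤ) : ℝ) := by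
      rw [Int.toNat_of_nonneg h]
    rw [Int.cast_natCast] at h1
    rw [h1]
    push_cast
    linarith
  · have h0 : (⌊(R - y) / (2 * (N : ℝ))⌋ + 1 - ⌈(-R - y) / (2 * (N : ℝ))⌉).toNat = 0 :=
      Int.toNat_of_nonpos (by omega)
    rw [h0, Nat.cast_zero]
    linarith

theorem periodize_inter_cube_encard_le (N : ℕ) (hN : 1 ≤ N) (Y : Finset (Fin n → ℝ)) (R : ℝ)
    (hR : 0 ≤ R) :
    (periodize N Y ∩ cube n R).Finite ∧
      ((periodize N Y ∩ cube n R).encard : ℝ≥0∞) ≤
        ENNReal.ofReal ((Y.card : ℝ) * (R / N + 1) ^ n) := by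
  classical
  have hNpos : (0 : ℝ) < N := Nat.cast_pos.mpr (by omega)
  have h2N : (0 : ℝ) < 2 * (N : ℝ) := by linarith
  obtain ⟨I, hI⟩ : ∃ I : (Fin n → ℝ) → Fin n → Finset ℤ, ∀ y i, I y i =
      Finset.Icc ⌈(-R - y i) / (2 * (N : ℝ))⌉ ⌊(R - y i) / (2 * (N : ℝ))⌋ :=
    ⟨fun y i => Finset.Icc ⌈(-R - y i) / (2 * (N : ℝ))⌉ ⌊(R - y i) / (2 * (N : ℝ))⌋,
      fun _ _ => rfl⟩
  obtain ⟨S, hS⟩ : ∃ S : Finset (Fin n → ℝ), S = Y.biUnion (fun y =>
      (Fintype.piFinset (I y)).image (fun m : Fin n → ℤ => fun i => y i + 2 * (N : ℝ) * (m i))) :=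
    ⟨_, rfl⟩
  have hsub : periodize N Y ∩ cube n R ⊆ (S : Set (Fin n → ℝ)) := by
    rintro x ⟨⟨y, hy, m, hxm⟩, hxc⟩
    rw [mem_cube] at hxc
    rw [Finset.mem_coe, hS, Finset.mem_biUnion]
    refine ⟨y, hy, ?_⟩
    rw [Finset.mem_image]
    refine ⟨m, ?_, hxm.symm⟩
    rw [Fintype.mem_piFinset]
    intro i
    have hi := abs_le.mp (hxc i)
    rw [hxm] at hi
    rw [hI, Finset.mem_Icc]
    constructor
    · apply Int.ceil_le.mpr
      rw [div_le_iff₀ h2N]
      linarith [hi.1]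
    · apply Int.le_floor.mpr
      rw [le_div_iff₀ h2N]
      linarith [hi.2]
  have hfin : (periodize N Y ∩ cube n R).Finite := (Finset.finite_toSet S).subset hsub
  have hRN : 0 ≤ R / N + 1 := by
    have := div_nonneg hR hNpos.le
    linarith
  have hcardS : (S.card : ℝ) ≤ (Y.card : ℝ) * (R / N + 1) ^ n := by
    have h1 : S.card ≤ ∑ y ∈ Y, ((Fintype.piFinset (I y)).image
        (fun m : Fin n → ℤ => fun i => y i + 2 * (N : ℝ) * (m i))).card := by
      rw [hS]
      exact Finset.card_biUnion_le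
    have h2 : ∑ y ∈ Y, ((Fintype.piFinset (I y)).image
        (fun m : Fin n → ℤ => fun i => y i + 2 * (N : ℝ) * (m i))).card
        ≤ ∑ y ∈ Y, ∏ i, (I y i).card := by
      apply Finset.sum_le_sum
      intro y _
      rw [← Fintype.card_piFinset]
      exact Finset.card_image_le
    have h3 : ((∑ y ∈ Y, ∏ i, (I y i).card : ℕ) : ℝ) ≤ ∑ _y ∈ Y, (R / N + 1) ^ n := by
      push_cast
      apply Finset.sum_le_sum
      intro y _
      have h4 : ∏ i : Fin n, ((I y i).card : ℝ) ≤ ∏ _i : Fin n, (R / N + 1) := by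
        apply Finset.prod_le_prod
        · intro i _
          exact Nat.cast_nonneg _
        · intro i _
          rw [hI]
          exact taskPERB_card_Icc R (y i) N hN hR
      rw [Finset.prod_const, Finset.card_univ, Fintype.card_fin] at h4
      exact h4
    rw [Finset.sum_const, nsmul_eq_mul] at h3
    have h5 : (S.card : ℝ) ≤ ((∑ y ∈ Y, ∏ i, (I y i).card : ℕ) : ℝ) := by
      exact_mod_cast le_trans h1 h2
    exact le_trans h5 h3
  refine ⟨hfin, ?_⟩
  have h6 : (periodize N Y ∩ cube n R).encard ≤ (S.card : ℕ∞) := by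
    rw [← Set.encard_coe_eq_coe_finsetCard]
    exact Set.encard_le_encard hsub
  have h7 : ((periodize N Y ∩ cube n R).encard : ℝ≥0∞) ≤ ((S.card : ℕ∞) : ℝ≥0∞) :=
    ENat.toENNReal_le.mpr h6
  rw [ENat.toENNReal_coe] at h7
  refine le_trans h7 ?_
  rw [← ENNReal.ofReal_natCast]
  exact ENNReal.ofReal_le_ofReal hcardS

theorem isLocFinite_periodize (N : ℕ) (hN : 1 ≤ N) (Y : Finset (Fin n → ℝ)) :
    IsLocFinite (periodize N Y) := by
  apply isLocFinite_of_forall_cube
  intro R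
  have h := (periodize_inter_cube_encard_le N hN Y (max R 0) (le_max_right _ _)).1
  exact h.subset (Set.inter_subset_inter_right _ (cube_mono (le_max_left _ _)))

theorem upperDensity_periodize_le (N : ℕ) (hN : 1 ≤ N) (Y : Finset (Fin n → ℝ)) :
    upperDensity (periodize N Y) ≤ ENNReal.ofReal ((Y.card : ℝ) / (2 * N) ^ n) := by
  have hNpos : (0 : ℝ) < N := Nat.cast_pos.mpr (by omega)
  apply upperDensity_le_of_tendsto (periodize N Y) (fun R => (Y.card : ℝ) * (R / N + 1) ^ n)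
  · filter_upwards [eventually_ge_atTop (0 : ℝ)] with R hR
    exact (periodize_inter_cube_encard_le N hN Y R hR).2
  · have hcont : Continuous (fun t : ℝ => (Y.card : ℝ) * ((1 / (N : ℝ) + t) / 2) ^ n) := by
      fun_prop
    have h1 : Tendsto (fun R : ℝ => (Y.card : ℝ) * ((1 / (N : ℝ) + R⁻¹) / 2) ^ n) atTop
        (nhds ((Y.card : ℝ) * ((1 / (N : ℝ) + 0) / 2) ^ n)) :=
      (hcont.tendsto 0).comp tendsto_inv_atTop_zero
    have e0 : (Y.card : ℝ) * ((1 / (N : ℝ) + 0) / 2) ^ n = (Y.card : ℝ) / (2 * N) ^ n := by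
      have : (1 / (N : ℝ) + 0) / 2 = 1 / (2 * N) := by
        rw [add_zero, div_div, mul_comm]
      rw [this, div_pow, one_pow, mul_one_div]
    rw [e0] at h1
    refine h1.congr' ?_
    filter_upwards [eventually_gt_atTop (0 : ℝ)] with R hR
    have e1 : (1 / (N : ℝ) + R⁻¹) / 2 = (R / N + 1) / (2 * R) := by
      field_simp
    rw [e1, div_pow, mul_div_assoc]

end PerB

/-! ### SLA : two finite lemmas for the choice of the slice -/

section SlA

/-- An offset that is the fractional part of no element of a finite set of reals. -/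
theorem exists_offset (F : Finset ℝ) : ∃ c : ℝ, 0 < c ∧ c < 1 ∧ ∀ x ∈ F, Int.fract x ≠ c := by
  classical
  obtain ⟨c, hc, hcF⟩ := (Set.Ioo_infinite (zero_lt_one : (0 : ℝ) < 1)).exists_notMem_finset
    (F.image Int.fract)
  exact ⟨c, hc.1, hc.2, fun x hx hxc => hcF (Finset.mem_image.2 ⟨x, hx, hxc⟩)⟩

/-- Pigeonhole: among `2N` pairwise disjoint subsets of a finite set, one has at most
`1/(2N)` of the elements. -/
theorem exists_small_part {α : Type} [DecidableEq α] (F : Finset α) (N : ℕ) (hN : 1 ≤ N)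
    (P : ℤ → Finset α) (hP : ∀ j, P j ⊆ F)
    (hdisj : ∀ j j', j ≠ j' → Disjoint (P j) (P j')) :
    ∃ j ∈ Finset.Ico (-(N : ℤ)) N, (P j).card * (2 * N) ≤ F.card := by
  have hne : (Finset.Ico (-(N : ℤ)) N).Nonempty :=
    ⟨0, Finset.mem_Ico.2 ⟨by omega, by omega⟩⟩
  obtain ⟨j0, hj0, hmin⟩ :=
    Finset.exists_min_image (Finset.Ico (-(N : ℤ)) N) (fun j => (P j).card) hne
  refine ⟨j0, hj0, ?_⟩
  have hcard : (Finset.Ico (-(N : ℤ)) N).card = 2 * N := by
    rw [Int.card_Ico]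
    omega
  have h1 : (Finset.Ico (-(N : ℤ)) N).card • (P j0).card
      ≤ ∑ j ∈ Finset.Ico (-(N : ℤ)) N, (P j).card :=
    Finset.card_nsmul_le_sum _ _ _ (fun j hj => hmin j hj)
  have h2 : ∑ j ∈ Finset.Ico (-(N : ℤ)) N, (P j).card
      = ((Finset.Ico (-(N : ℤ)) N).biUnion P).card := by
    rw [Finset.card_biUnion]
    intro j _ j' _ hjj'
    exact hdisj j j' hjj'
  have h3 : ((Finset.Ico (-(N : ℤ)) N).biUnion P).card ≤ F.card :=
    Finset.card_le_card (Finset.biUnion_subset.2 (fun j _ => hP j))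
  rw [hcard, smul_eq_mul] at h1
  calc (P j0).card * (2 * N) = 2 * N * (P j0).card := by ring
    _ ≤ ∑ j ∈ Finset.Ico (-(N : ℤ)) N, (P j).card := h1
    _ = ((Finset.Ico (-(N : ℤ)) N).biUnion P).card := h2
    _ ≤ F.card := h3

end SlA

/-! ### SLB : a horizontal slice covered by few translates -/

section SlB

variable {n : ℕ}

/-- The good slice: if the translates of the prism `K × [0, 1]` by `X'` cover `ℝⁿ⁺¹`, then
the cube `Q_N` of `ℝⁿ` is covered by the translates of `K` by a finite set `Y` with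
`#Y * 2N ≤ #(X' ∩ Q_{N + D})`. -/
theorem exists_good_slice (K : Set (Fin n → ℝ)) (D : ℝ) (hD : 1 ≤ D) (hK : K ⊆ cube n D)
    (X' : Set (Fin (n + 1) → ℝ)) (hX' : IsLocFinite X') (hcov : prism K + X' = Set.univ)
    (N : ℕ) (hN : 1 ≤ N) :
    ∃ Y : Finset (Fin n → ℝ), cube n N ⊆ K + (Y : Set (Fin n → ℝ)) ∧
      (Y.card : ℝ) * (2 * N) ≤ ((X' ∩ cube (n + 1) (N + D)).ncard : ℝ) := by
  classical
  have hF : (X' ∩ cube (n + 1) (N + D)).Finite := hX'.finite_inter_cube _
  obtain ⟨Ff, hFf⟩ : ∃ Ff : Finset (Fin (n + 1) → ℝ), Ff = hF.toFinset := ⟨_, rfl⟩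
  have hmemF : ∀ x, x ∈ Ff ↔ x ∈ X' ∧ x ∈ cube (n + 1) (N + D) := by
    intro x
    rw [hFf, Set.Finite.mem_toFinset]
    exact Iff.rfl
  obtain ⟨c, hc0, hc1, hcne⟩ := exists_offset (Ff.image fun x => x (Fin.last n))
  have hcne' : ∀ x ∈ Ff, Int.fract (x (Fin.last n)) ≠ c :=
    fun x hx => hcne _ (Finset.mem_image_of_mem _ hx)
  obtain ⟨P, hPdef⟩ : ∃ P : ℤ → Finset (Fin (n + 1) → ℝ), P = fun j : ℤ =>
      Ff.filter (fun x => (j : ℝ) + c - 1 < x (Fin.last n) ∧ x (Fin.last n) < j + c) :=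
    ⟨_, rfl⟩
  have hmemP : ∀ j x, x ∈ P j ↔
      x ∈ Ff ∧ ((j : ℝ) + c - 1 < x (Fin.last n) ∧ x (Fin.last n) < j + c) := by
    intro j x
    rw [hPdef]
    exact Finset.mem_filter
  have hPsub : ∀ j, P j ⊆ Ff := fun j x hx => ((hmemP j x).1 hx).1
  have hdisj : ∀ j j', j ≠ j' → Disjoint (P j) (P j') := by
    intro j j' hjj'
    rw [Finset.disjoint_left]
    intro x hx hx'
    obtain ⟨-, h1, h2⟩ := (hmemP j x).1 hx
    obtain ⟨-, h1', h2'⟩ := (hmemP j' x).1 hx'
    apply hjj'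
    have ha : (j : ℝ) < j' + 1 := by linarith
    have hb : (j' : ℝ) < j + 1 := by linarith
    have ha' : j < j' + 1 := by exact_mod_cast ha
    have hb' : j' < j + 1 := by exact_mod_cast hb
    omega
  obtain ⟨j, hj, hcard⟩ := exists_small_part Ff N hN P hPsub hdisj
  rw [Finset.mem_Ico] at hj
  refine ⟨(P j).image (fun x : Fin (n + 1) → ℝ => (Fin.init x : Fin n → ℝ)), ?_, ?_⟩
  · intro p hp
    rw [mem_cube] at hp
    obtain ⟨h, hhdef⟩ : ∃ h : ℝ, h = (j : ℝ) + c := ⟨_, rfl⟩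
    have hq : (Fin.snoc p h : Fin (n + 1) → ℝ) ∈ prism K + X' := by
      rw [hcov]
      exact Set.mem_univ _
    rw [Set.mem_add] at hq
    obtain ⟨k', hk', x, hx, hsum⟩ := hq
    obtain ⟨hk'K, hk'0, hk'1⟩ := hk'
    have hcoord : ∀ i : Fin n, k' i.castSucc + x i.castSucc = p i := by
      intro i
      have h1 := congrFun hsum i.castSucc
      rw [Fin.snoc_castSucc] at h1
      exact h1
    have hlast : k' (Fin.last n) + x (Fin.last n) = h := by
      have h1 := congrFun hsum (Fin.last n)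
      rw [Fin.snoc_last] at h1
      exact h1
    have hkD : ∀ i : Fin n, |k' i.castSucc| ≤ D := by
      intro i
      have h1 := hK hk'K
      rw [mem_cube] at h1
      exact h1 i
    have hjN1 : (-(N:ℝ)) ≤ j := by exact_mod_cast hj.1
    have hjN2 : (j:ℝ) + 1 ≤ N := by exact_mod_cast (Int.add_one_le_iff.mpr hj.2)
    have hxcube : x ∈ cube (n + 1) (N + D) := by
      rw [mem_cube]
      intro i
      refine Fin.lastCases ?_ (fun i => ?_) i
      · rw [abs_le]
        constructor <;> linarith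
      · have h1 := hcoord i
        have h2 := hkD i
        have h3 := hp i
        rw [abs_le] at h2 h3 ⊢
        constructor <;> linarith
    have hxF : x ∈ Ff := (hmemF x).2 ⟨hx, hxcube⟩
    have hfr := hcne' x hxF
    have hne1 : x (Fin.last n) ≠ h := by
      intro he
      apply hfr
      rw [he, hhdef, Int.fract_intCast_add]
      exact Int.fract_eq_self.2 ⟨hc0.le, hc1⟩
    have hne2 : x (Fin.last n) ≠ h - 1 := by
      intro he
      apply hfr
      have e : h - 1 = ((j - 1 : ℤ) : ℝ) + c := by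
        rw [hhdef]
        push_cast
        ring
      rw [he, e, Int.fract_intCast_add]
      exact Int.fract_eq_self.2 ⟨hc0.le, hc1⟩
    have hlt1 : h - 1 < x (Fin.last n) := lt_of_le_of_ne (by linarith) (Ne.symm hne2)
    have hlt2 : x (Fin.last n) < h := lt_of_le_of_ne (by linarith) hne1
    have hxP : x ∈ P j := by
      rw [hmemP]
      rw [hhdef] at hlt1 hlt2
      exact ⟨hxF, by linarith, hlt2⟩
    rw [Set.mem_add]
    refine ⟨Fin.init k', hk'K, Fin.init x, ?_, ?_⟩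
    · rw [Finset.mem_coe]
      exact Finset.mem_image_of_mem _ hxP
    · funext i
      exact hcoord i
  · have h1 : ((P j).image (fun x : Fin (n + 1) → ℝ => (Fin.init x : Fin n → ℝ))).card
        ≤ (P j).card := Finset.card_image_le
    have h2 : Ff.card = (X' ∩ cube (n + 1) (N + D)).ncard := by
      rw [hFf]
      exact (Set.ncard_eq_toFinset_card _ hF).symm
    rw [← h2]
    have h3 : ((P j).image (fun x : Fin (n + 1) → ℝ => (Fin.init x : Fin n → ℝ))).card
        * (2 * N) ≤ Ff.card := le_trans (Nat.mul_le_mul_right _ h1) hcard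
    exact_mod_cast h3

end SlB

/-! ### LIMA : the bound by the count in a large cube -/

section LimA

variable {n : ℕ}

theorem transCovDensity_le_count (K : Set (Fin n → ℝ)) (D : ℝ) (hD : 1 ≤ D)
    (hK : K ⊆ cube n D) (X' : Set (Fin (n + 1) → ℝ)) (hX' : IsLocFinite X')
    (hcov : prism K + X' = Set.univ) (N : ℕ) (hN : 1 ≤ N) :
    transCovDensity K ≤ volume K *
      ENNReal.ofReal (((X' ∩ cube (n + 1) (N + D)).ncard : ℝ) / (2 * N) ^ (n + 1)) := by
  obtain ⟨Y, hcovY, hcard⟩ := exists_good_slice K D hD hK X' hX' hcov N hN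
  have hNpos : (0 : ℝ) < 2 * N := by
    have h1 : (1 : ℝ) ≤ N := by exact_mod_cast hN
    linarith
  have h1 : transCovDensity K ≤ volume K * upperDensity (periodize N Y) := by
    unfold transCovDensity
    exact iInf₂_le (periodize N Y)
      ⟨isLocFinite_periodize N hN Y, periodize_cover N hN K Y hcovY⟩
  have h2 : upperDensity (periodize N Y) ≤
      ENNReal.ofReal (((X' ∩ cube (n + 1) (N + D)).ncard : ℝ) / (2 * N) ^ (n + 1)) := by
    refine (upperDensity_periodize_le N hN Y).trans (ENNReal.ofReal_le_ofReal ?_)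
    have e : (Y.card : ℝ) / (2 * N) ^ n = (Y.card : ℝ) * (2 * N) / (2 * N) ^ (n + 1) := by
      rw [pow_succ]
      field_simp
    rw [e]
    exact div_le_div_of_nonneg_right hcard (by positivity)
  calc transCovDensity K ≤ volume K * upperDensity (periodize N Y) := h1
    _ ≤ volume K *
        ENNReal.ofReal (((X' ∩ cube (n + 1) (N + D)).ncard : ℝ) / (2 * N) ^ (n + 1)) := by
        gcongr

end LimA

/-! ### LIMB : the counts in large cubes are controlled by the upper density -/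

section LimB

variable {n : ℕ}

theorem exists_count_le (D : ℝ) (hD : 1 ≤ D) (X' : Set (Fin (n + 1) → ℝ))
    (hX' : IsLocFinite X') (b : ℝ≥0∞) (hb : upperDensity X' < b) :
    ∃ N : ℕ, 1 ≤ N ∧
      ENNReal.ofReal (((X' ∩ cube (n + 1) (N + D)).ncard : ℝ) / (2 * N) ^ (n + 1)) ≤ b := by
  rcases eq_or_ne b ⊤ with hbtop | hbtop
  · exact ⟨1, le_refl 1, hbtop ▸ le_top⟩
  obtain ⟨b1, h1, h2⟩ := exists_between hb
  have hb1top : b1 ≠ ⊤ := ne_top_of_lt h2
  have hr : b1.toReal < b.toReal := (ENNReal.toReal_lt_toReal hb1top hbtop).mpr h2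
  have hev := eventually_encard_le_of_upperDensity_lt X' b1 h1
  have htend : Tendsto (fun N : ℕ => (N : ℝ) + D) atTop atTop :=
    tendsto_atTop_add_const_right _ _ tendsto_natCast_atTop_atTop
  have hevN := htend.eventually hev
  have hlim : Tendsto (fun N : ℕ => b1.toReal * (1 + D / (N : ℝ)) ^ (n + 1)) atTop
      (nhds (b1.toReal * (1 + 0) ^ (n + 1))) :=
    ((tendsto_const_nhds.add (tendsto_const_div_atTop_nhds_zero_nat D)).pow (n + 1)).const_mul _
  have hlim' : ∀ᶠ N : ℕ in atTop, b1.toReal * (1 + D / (N : ℝ)) ^ (n + 1) < b.toReal :=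
    hlim.eventually_lt_const (by simpa using hr)
  obtain ⟨N, hN1, hNe, hNl⟩ := ((eventually_ge_atTop 1).and (hevN.and hlim')).exists
  refine ⟨N, hN1, ?_⟩
  have hfin := hX'.finite_inter_cube ((N : ℝ) + D)
  have hNpos : (0 : ℝ) < N := by exact_mod_cast hN1
  have hN0 : (N : ℝ) ≠ 0 := hNpos.ne'
  have hD0 : (0 : ℝ) < D := by linarith
  have hnn : 0 ≤ b1.toReal * (2 * ((N : ℝ) + D)) ^ (n + 1) :=
    mul_nonneg ENNReal.toReal_nonneg (pow_nonneg (by linarith) _)
  rw [← hfin.cast_ncard_eq, ENat.toENNReal_coe, ← ENNReal.ofReal_toReal hb1top,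
    ← ENNReal.ofReal_mul ENNReal.toReal_nonneg, ← ENNReal.ofReal_natCast,
    ENNReal.ofReal_le_ofReal_iff hnn] at hNe
  rw [← ENNReal.ofReal_toReal hbtop]
  apply ENNReal.ofReal_le_ofReal
  have hpos : (0 : ℝ) < (2 * (N : ℝ)) ^ (n + 1) := pow_pos (by linarith) _
  rw [div_le_iff₀ hpos]
  have hcancel : D / (N : ℝ) * (N : ℝ) = D := div_mul_cancel₀ D hN0
  have hfac : (2 * ((N : ℝ) + D)) ^ (n + 1) =
      (1 + D / (N : ℝ)) ^ (n + 1) * (2 * (N : ℝ)) ^ (n + 1) := by
    rw [← mul_pow]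
    congr 1
    linear_combination (-2 : ℝ) * hcancel
  calc ((X' ∩ cube (n + 1) ((N : ℝ) + D)).ncard : ℝ)
      ≤ b1.toReal * (2 * ((N : ℝ) + D)) ^ (n + 1) := hNe
    _ = b1.toReal * (1 + D / (N : ℝ)) ^ (n + 1) * (2 * (N : ℝ)) ^ (n + 1) := by
        rw [hfac]
        ring
    _ ≤ b.toReal * (2 * (N : ℝ)) ^ (n + 1) := mul_le_mul_of_nonneg_right hNl.le hpos.le

end LimB

/-! ### LIMC : the inequality θ_T(K) ≤ θ_T(K × [0,1]) -/

section LimC

variable {n : ℕ}

theorem transCovDensity_le_of_cover (K : Set (Fin n → ℝ)) (hK : Bornology.IsBounded K)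
    (X' : Set (Fin (n + 1) → ℝ)) (hX' : IsLocFinite X') (hcov : prism K + X' = Set.univ) :
    transCovDensity K ≤ volume K * upperDensity X' := by
  obtain ⟨D, hD, hKD⟩ := exists_cube_of_isBounded K hK
  have hvol : volume K < ⊤ := volume_lt_top_of_isBounded K hK
  have claim : ∀ b : ℝ≥0∞, upperDensity X' < b → transCovDensity K ≤ volume K * b := by
    intro b hb
    obtain ⟨N, hN, hle⟩ := exists_count_le D hD X' hX' b hb
    exact (transCovDensity_le_count K D hD hKD X' hX' hcov N hN).trans (mul_le_mul' le_rfl hle)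
  by_cases hv0 : volume K = 0
  · have h1 := transCovDensity_le_count K D hD hKD X' hX' hcov 1 le_rfl
    rw [hv0, zero_mul] at h1
    rw [hv0, zero_mul]
    exact h1
  · by_cases hu : upperDensity X' = ⊤
    · rw [hu, ENNReal.mul_top hv0]
      exact le_top
    · refine le_of_forall_gt_imp_ge_of_dense (fun c hc => ?_)
      have hb : upperDensity X' < c / volume K := by
        rw [ENNReal.lt_div_iff_mul_lt (Or.inl hv0) (Or.inl hvol.ne), mul_comm]
        exact hc
      have h2 := claim (c / volume K) hb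
      rwa [ENNReal.mul_div_cancel hv0 hvol.ne] at h2

theorem transCovDensity_le_prism (K : Set (Fin n → ℝ)) (hK : Bornology.IsBounded K) :
    transCovDensity K ≤ transCovDensity (prism K) := by
  show transCovDensity K ≤ ⨅ (X' : Set (Fin (n + 1) → ℝ))
    (_ : IsLocFinite X' ∧ prism K + X' = Set.univ), volume (prism K) * upperDensity X'
  refine le_iInf₂ (fun X' hX' => ?_)
  rw [volume_prism]
  exact transCovDensity_le_of_cover K hK X' hX'.1 hX'.2

end LimC

/-! ### STA : stacking a covering: covering and counting -/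

section StA

variable {n : ℕ}

theorem stack_cover (K X : Set (Fin n → ℝ)) (h : K + X = Set.univ) :
    prism K + stack X = Set.univ := by
  rw [Set.eq_univ_iff_forall]
  intro q
  have hq : Fin.init q ∈ K + X := by
    rw [h]
    exact Set.mem_univ _
  obtain ⟨k, hk, x, hx, hkx⟩ := Set.mem_add.mp hq
  rw [Set.mem_add]
  refine ⟨Fin.snoc k (q (Fin.last n) - ⌊q (Fin.last n)⌋), ?_,
    Fin.snoc x (⌊q (Fin.last n)⌋ : ℝ), ?_, ?_⟩
  · refine ⟨?_, ?_⟩
    · rw [Fin.init_snoc]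
      exact hk
    · rw [Fin.snoc_last]
      have h1 := Int.floor_le (q (Fin.last n))
      have h2 := Int.lt_floor_add_one (q (Fin.last n))
      exact ⟨by linarith, by linarith⟩
  · refine ⟨?_, ⌊q (Fin.last n)⌋, ?_⟩
    · rw [Fin.init_snoc]
      exact hx
    · rw [Fin.snoc_last]
  · funext i
    refine Fin.lastCases ?_ (fun j => ?_) i
    · simp only [Pi.add_apply, Fin.snoc_last]
      ring
    · simp only [Pi.add_apply, Fin.snoc_castSucc]
      exact congrFun hkx j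

theorem stack_inter_cube_encard_le (X : Set (Fin n → ℝ)) (hX : IsLocFinite X) (R : ℝ)
    (hR : 0 ≤ R) :
    (stack X ∩ cube (n + 1) R).Finite ∧
      ((stack X ∩ cube (n + 1) R).encard : ℝ≥0∞) ≤
        ((X ∩ cube n R).encard : ℝ≥0∞) * ENNReal.ofReal (2 * R + 1) := by
  have hA : (X ∩ cube n R).Finite := hX.finite_inter_cube R
  obtain ⟨I, hI⟩ : ∃ I : Finset ℤ, I = Finset.Icc ⌈-R⌉ ⌊R⌋ := ⟨_, rfl⟩
  obtain ⟨f, hf⟩ : ∃ f : (Fin (n + 1) → ℝ) → (Fin n → ℝ) × ℤ,
      f = fun x => (Fin.init x, ⌊x (Fin.last n)⌋) := ⟨_, rfl⟩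
  have hmaps : Set.MapsTo f (stack X ∩ cube (n + 1) R) ((X ∩ cube n R) ×ˢ (I : Set ℤ)) := by
    intro x hx
    obtain ⟨⟨hx1, m, hm⟩, hx2⟩ := hx
    rw [mem_cube] at hx2
    rw [hf]
    refine Set.mem_prod.mpr ⟨⟨hx1, ?_⟩, ?_⟩
    · rw [mem_cube]
      intro i
      exact hx2 i.castSucc
    · have h1 := hx2 (Fin.last n)
      rw [hm, abs_le] at h1
      change ⌊x (Fin.last n)⌋ ∈ (I : Set ℤ)
      rw [hm, Int.floor_intCast, Finset.mem_coe, hI, Finset.mem_Icc]
      exact ⟨Int.ceil_le.mpr h1.1, Int.le_floor.mpr h1.2⟩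
  have hinj : Set.InjOn f (stack X ∩ cube (n + 1) R) := by
    intro x hx y hy hxy
    obtain ⟨⟨-, m, hm⟩, -⟩ := hx
    obtain ⟨⟨-, m', hm'⟩, -⟩ := hy
    rw [hf] at hxy
    have h1 : Fin.init x = Fin.init y := congrArg Prod.fst hxy
    have h2 : ⌊x (Fin.last n)⌋ = ⌊y (Fin.last n)⌋ := congrArg Prod.snd hxy
    rw [hm, hm', Int.floor_intCast, Int.floor_intCast] at h2
    funext i
    refine Fin.lastCases ?_ (fun j => ?_) i
    · rw [hm, hm', h2]
    · exact congrFun h1 j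
  have hfinT : ((X ∩ cube n R) ×ˢ (I : Set ℤ)).Finite := hA.prod (Finset.finite_toSet I)
  have hfin : (stack X ∩ cube (n + 1) R).Finite := Set.Finite.of_injOn hmaps hinj hfinT
  refine ⟨hfin, ?_⟩
  have hle : (stack X ∩ cube (n + 1) R).encard ≤ ((X ∩ cube n R) ×ˢ (I : Set ℤ)).encard :=
    Set.encard_le_encard_of_injOn hmaps hinj
  have hprod : ((X ∩ cube n R) ×ˢ (I : Set ℤ)).encard =
      ((hA.toFinset.card * I.card : ℕ) : ℕ∞) := by
    have h0 : (X ∩ cube n R) ×ˢ (I : Set ℤ) =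
        ((hA.toFinset ×ˢ I : Finset ((Fin n → ℝ) × ℤ)) : Set ((Fin n → ℝ) × ℤ)) := by
      rw [Finset.coe_product, Set.Finite.coe_toFinset]
    rw [h0, Set.encard_coe_eq_coe_finsetCard, Finset.card_product]
  have hAc : (X ∩ cube n R).encard = (hA.toFinset.card : ℕ∞) := by
    rw [← Set.encard_coe_eq_coe_finsetCard, Set.Finite.coe_toFinset]
  have hIc : (I.card : ℝ) ≤ 2 * R + 1 := by
    rw [hI, Int.card_Icc]
    have h1 : (0 : ℤ) ≤ ⌊R⌋ := Int.floor_nonneg.mpr hR
    have h2 : ⌈-R⌉ ≤ 0 := Int.ceil_le.mpr (by simpa using hR)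
    have h3 : ((⌊R⌋ + 1 - ⌈-R⌉).toNat : ℤ) = ⌊R⌋ + 1 - ⌈-R⌉ :=
      Int.toNat_of_nonneg (by omega)
    have h4 : (((⌊R⌋ + 1 - ⌈-R⌉).toNat : ℕ) : ℝ) = ((⌊R⌋ + 1 - ⌈-R⌉ : ℤ) : ℝ) := by
      rw [← Int.cast_natCast, h3]
    rw [h4]
    push_cast
    have h5 := Int.floor_le R
    have h6 := Int.le_ceil (-R)
    linarith
  calc ((stack X ∩ cube (n + 1) R).encard : ℝ≥0∞)
      ≤ (((X ∩ cube n R) ×ˢ (I : Set ℤ)).encard : ℝ≥0∞) := ENat.toENNReal_le.mpr hle
    _ = ((hA.toFinset.card : ℕ) : ℝ≥0∞) * ((I.card : ℕ) : ℝ≥0∞) := by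
        rw [hprod, ENat.toENNReal_coe, Nat.cast_mul]
    _ ≤ ((X ∩ cube n R).encard : ℝ≥0∞) * ENNReal.ofReal (2 * R + 1) := by
        rw [hAc, ENat.toENNReal_coe]
        gcongr
        rw [← ENNReal.ofReal_natCast]
        exact ENNReal.ofReal_le_ofReal hIc

theorem isLocFinite_stack (X : Set (Fin n → ℝ)) (hX : IsLocFinite X) :
    IsLocFinite (stack X) := by
  apply isLocFinite_of_forall_cube
  intro R
  have h := (stack_inter_cube_encard_le X hX |R| (abs_nonneg R)).1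
  exact h.subset (Set.inter_subset_inter_right _ (cube_mono (le_abs_self R)))

end StA

/-! ### STB : the inequality θ_T(K × [0,1]) ≤ θ_T(K) -/

section StB

variable {n : ℕ}

theorem upperDensity_stack_le (X : Set (Fin n → ℝ)) (hX : IsLocFinite X) :
    upperDensity (stack X) ≤ upperDensity X := by
  refine le_of_forall_gt_imp_ge_of_dense (fun c hc => ?_)
  obtain ⟨γ, hγ0, hγ1, hγ2⟩ := ENNReal.lt_iff_exists_real_btwn.mp hc
  obtain ⟨β, hβ0, hβ1, hβ2⟩ := ENNReal.lt_iff_exists_real_btwn.mp hγ1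
  have hβγ : β < γ := (ENNReal.ofReal_lt_ofReal_iff_of_nonneg hβ0).mp hβ2
  have hev := eventually_encard_le_of_upperDensity_lt X (ENNReal.ofReal β) hβ1
  refine (upperDensity_le_of_eventually (stack X) (ENNReal.ofReal γ) ?_).trans hγ2.le
  filter_upwards [hev, eventually_ge_atTop (0 : ℝ), eventually_ge_atTop (β / (2 * (γ - β)))]
    with R h1 hR0 hR1
  have h2 := (stack_inter_cube_encard_le X hX R hR0).2
  have hpow : (0 : ℝ) ≤ (2 * R) ^ n := by positivity
  have h2R : (0 : ℝ) ≤ 2 * R + 1 := by positivity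
  have hgb : 0 < γ - β := by linarith
  have h3 : β * (2 * R + 1) ≤ γ * (2 * R) := by
    have h4 : β ≤ R * (2 * (γ - β)) := by
      have h5 := (div_le_iff₀ (by positivity : (0 : ℝ) < 2 * (γ - β))).mp hR1
      linarith
    nlinarith
  calc ((stack X ∩ cube (n + 1) R).encard : ℝ≥0∞)
      ≤ ((X ∩ cube n R).encard : ℝ≥0∞) * ENNReal.ofReal (2 * R + 1) := h2
    _ ≤ ENNReal.ofReal β * ENNReal.ofReal ((2 * R) ^ n) * ENNReal.ofReal (2 * R + 1) :=
        mul_le_mul_left h1 _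
    _ = ENNReal.ofReal (β * (2 * R) ^ n * (2 * R + 1)) := by
        rw [← ENNReal.ofReal_mul hβ0, ← ENNReal.ofReal_mul (mul_nonneg hβ0 hpow)]
    _ ≤ ENNReal.ofReal (γ * (2 * R) ^ (n + 1)) := by
        refine ENNReal.ofReal_le_ofReal ?_
        calc β * (2 * R) ^ n * (2 * R + 1) = (2 * R) ^ n * (β * (2 * R + 1)) := by ring
          _ ≤ (2 * R) ^ n * (γ * (2 * R)) := mul_le_mul_of_nonneg_left h3 hpow
          _ = γ * (2 * R) ^ (n + 1) := by ring
    _ = ENNReal.ofReal γ * ENNReal.ofReal ((2 * R) ^ (n + 1)) := ENNReal.ofReal_mul hγ0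

theorem transCovDensity_prism_le (K : Set (Fin n → ℝ)) :
    transCovDensity (prism K) ≤ transCovDensity K := by
  unfold transCovDensity
  refine le_iInf₂ (fun X hX => ?_)
  refine (iInf₂_le (stack X) ⟨isLocFinite_stack X hX.1, stack_cover K X hX.2⟩).trans ?_
  rw [volume_prism]
  exact mul_le_mul_right (upperDensity_stack_le X hX.1) _

end StB

/-! ### FIN : the prism invariance and the monotonicity of Θ_T -/

section Fin

theorem transCovDensity_prism {n : ℕ} (K : Set (Fin n → ℝ)) (hK : Bornology.IsBounded K) :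
    transCovDensity (prism K) = transCovDensity K :=
  le_antisymm (transCovDensity_prism_le K) (transCovDensity_le_prism K hK)

theorem transCovSup_le_succ (n : ℕ) : transCovSup n ≤ transCovSup (n + 1) := by
  unfold transCovSup
  refine iSup₂_le fun K hK => ?_
  exact (transCovDensity_le_prism K hK.1.isBounded).trans
    (le_iSup₂_of_le (prism K) (isConvexBody_prism K hK) le_rfl)

end Fin

end Vale.Agent.Lib.P230
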